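import Vale.Agent.Lib.P327.Cantor

/-!
# Computable approximations of continuous maps on strings
-/

namespace Vale.Agent.Lib.P327

open Encodable Set Filter Topology

theorem preB_eq_of_mem_cyl {X Y : Cantor} {m : ℕ} (h : Y ∈ cyl X m) : preB Y m = preB X m :=
  preB_eq_iff.2 h

/-- A set defined by a property of some initial segment is open. -/
theorem isOpen_exists_preB (Q : List Bool → Prop) : IsOpen {X : Cantor | ∃ m, Q (preB X m)} := by
  rw [isOpen_iff_mem_nhds]
  rintro X ⟨m, hm⟩
  refine Filter.mem_of_superset ((isOpen_cyl X m).mem_nhds (self_mem_cyl X m)) ?_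
  intro Y hY
  exact ⟨m, by rw [preB_eq_of_mem_cyl hY]; exact hm⟩

/-- `θ` maps initial segments of `X` to initial segments of `H X`, of nondecreasing length,
and the length gets arbitrarily large on a dense set. -/
structure StrApprox (θ : List Bool → List Bool) (H : Cantor → Cantor) : Prop where
  sound : ∀ X m, θ (preB X m) = preB (H X) (θ (preB X m)).length
  mono : ∀ X m m', m ≤ m' → (θ (preB X m)).length ≤ (θ (preB X m')).length
  dense : ∀ l, Dense {X : Cantor | ∃ m, l ≤ (θ (preB X m)).length}

theorem StrApprox.id : StrApprox (fun τ => τ) (fun X => X) where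
  sound := fun X m => by simp
  mono := fun X m m' h => by simpa using h
  dense := fun l => by
    have : {X : Cantor | ∃ m, l ≤ (preB X m).length} = univ := by
      ext X
      simp only [mem_setOf_eq, mem_univ, iff_true]
      exact ⟨l, by simp⟩
    rw [this]
    exact dense_univ

theorem StrApprox.comp {θ₁ θ₂ : List Bool → List Bool} {H₁ H₂ : Cantor → Cantor}
    (h₁ : StrApprox θ₁ H₁) (h₂ : StrApprox θ₂ H₂) (hc : Continuous H₁) (ho : IsOpenMap H₁) :
    StrApprox (fun τ => θ₂ (θ₁ τ)) (fun X => H₂ (H₁ X)) where
  sound := fun X m => by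
    have e := h₁.sound X m
    generalize (θ₁ (preB X m)).length = k at e
    rw [e]
    exact h₂.sound (H₁ X) k
  mono := fun X m m' h => by
    have e := h₁.sound X m
    have e' := h₁.sound X m'
    have hk := h₁.mono X m m' h
    generalize (θ₁ (preB X m)).length = k at e hk
    generalize (θ₁ (preB X m')).length = k' at e' hk
    rw [e, e']
    exact h₂.mono (H₁ X) k k' hk
  dense := fun l => by
    rw [dense_iff_inter_open]
    intro U hU hne
    -- first find a point of `U` whose image is in the convergence set of `θ₂`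
    have hd2 : Dense (H₁ ⁻¹' {Z : Cantor | ∃ k, l ≤ (θ₂ (preB Z k)).length}) :=
      (h₂.dense l).preimage ho
    obtain ⟨X₁, hX₁U, k, hk⟩ := dense_iff_inter_open.1 hd2 U hU hne
    -- shrink
    have hV : IsOpen (U ∩ H₁ ⁻¹' (cyl (H₁ X₁) k)) := hU.inter ((isOpen_cyl _ _).preimage hc)
    obtain ⟨X', ⟨hX'U, hX'c⟩, m', hm'⟩ := dense_iff_inter_open.1 (h₁.dense k) _ hV
      ⟨X₁, hX₁U, self_mem_cyl _ _⟩
    refine ⟨X', hX'U, m', ?_⟩
    have e := h₁.sound X' m'
    generalize (θ₁ (preB X' m')).length = k' at e hm'
    show l ≤ (θ₂ (θ₁ (preB X' m'))).length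
    rw [e]
    refine le_trans ?_ (h₂.mono (H₁ X') k k' hm')
    rw [preB_eq_of_mem_cyl hX'c]
    exact hk

theorem StrApprox.iterate {θ : List Bool → List Bool} {H : Cantor → Cantor}
    (h : StrApprox θ H) (hc : Continuous H) (ho : IsOpenMap H) (n : ℕ) :
    StrApprox (θ^[n]) (H^[n]) := by
  induction n with
  | zero => exact StrApprox.id
  | succ n ih => exact h.comp ih hc ho

/-- `A` gives correct information on single bits of `H X` from initial segments of `X`. -/
structure BitApprox (A : List Bool → ℕ → Option Bool) (H : Cantor → Cantor) : Prop where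
  sound : ∀ X m n v, A (preB X m) n = some v → H X n = v
  mono : ∀ X m m' n, m ≤ m' → (A (preB X m) n).isSome → (A (preB X m') n).isSome
  dense : ∀ n, Dense {X : Cantor | ∃ m, (A (preB X m) n).isSome}

/-- Auxiliary function for `runLen`. -/
def rl (A : List Bool → ℕ → Option Bool) (τ : List Bool) (k : ℕ) : ℕ :=
  Nat.rec (motive := fun _ => ℕ) 0
    (fun k IH => bif (IH == k && (A τ k).isSome) then k + 1 else IH) k

theorem rl_succ (A : List Bool → ℕ → Option Bool) (τ : List Bool) (k : ℕ) :
    rl A τ (k + 1) = bif (rl A τ k == k && (A τ k).isSome) then k + 1 else rl A τ k := rfl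

theorem le_rl_iff (A : List Bool → ℕ → Option Bool) (τ : List Bool) (k l : ℕ) :
    l ≤ rl A τ k ↔ l ≤ k ∧ ∀ i, i < l → (A τ i).isSome := by
  induction k generalizing l with
  | zero =>
    constructor
    · intro h
      have : l = 0 := Nat.le_zero.1 h
      subst this
      exact ⟨le_rfl, fun i hi => absurd hi (Nat.not_lt_zero _)⟩
    · intro h
      exact h.1
  | succ k ih =>
    rw [rl_succ]
    cases hc : (rl A τ k == k && (A τ k).isSome) with
    | true =>
      simp only [Bool.and_eq_true, beq_iff_eq] at hc
      obtain ⟨h1, h2⟩ := hc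
      have h3 := ((ih k).1 (le_of_eq h1.symm)).2
      simp only [cond_true]
      constructor
      · intro h
        refine ⟨h, fun i hi => ?_⟩
        rcases Nat.lt_succ_iff_lt_or_eq.1 (lt_of_lt_of_le hi h) with hi | rfl
        · exact h3 i hi
        · exact h2
      · intro h
        exact h.1
    | false =>
      simp only [cond_false]
      rw [ih]
      constructor
      · intro h
        exact ⟨Nat.le_succ_of_le h.1, h.2⟩
      · intro h
        refine ⟨?_, h.2⟩
        rcases Nat.lt_succ_iff_lt_or_eq.1 (Nat.lt_succ_iff.2 h.1) with hl | rfl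
        · exact Nat.lt_succ_iff.1 hl
        · exfalso
          have h1 : k ≤ rl A τ k := (ih k).2 ⟨le_rfl, fun i hi => h.2 i (Nat.lt_succ_of_lt hi)⟩
          have h2 : rl A τ k ≤ k := ((ih (rl A τ k)).1 le_rfl).1
          have h3 : rl A τ k = k := le_antisymm h2 h1
          have h4 := h.2 k (Nat.lt_succ_self k)
          simp [h3, h4] at hc

/-- The length of the longest initial run of bits decided by `A τ`, at most the length of `τ`. -/
def runLen (A : List Bool → ℕ → Option Bool) (τ : List Bool) : ℕ := rl A τ τ.length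

/-- The longest initial run of bits decided by `A τ`. -/
def run (A : List Bool → ℕ → Option Bool) (τ : List Bool) : List Bool :=
  (List.range (runLen A τ)).map (fun i => (A τ i).getD false)

@[simp] theorem run_length (A : List Bool → ℕ → Option Bool) (τ : List Bool) :
    (run A τ).length = runLen A τ := by
  simp [run]

theorem le_runLen_iff (A : List Bool → ℕ → Option Bool) (τ : List Bool) (l : ℕ) :
    l ≤ runLen A τ ↔ l ≤ τ.length ∧ ∀ i, i < l → (A τ i).isSome :=
  le_rl_iff A τ τ.length l

theorem run_primrec {A : List Bool → ℕ → Option Bool} (hA : Primrec₂ A) : Primrec (run A) := by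
  have h1 : Primrec₂ (fun (τ : List Bool) (b : ℕ × ℕ) =>
      bif (b.2 == b.1 && (A τ b.1).isSome) then b.1 + 1 else b.2) := by
    have e1 : Primrec (fun c : List Bool × (ℕ × ℕ) => (c.2.2 == c.2.1)) :=
      Primrec.beq.comp (Primrec.snd.comp Primrec.snd) (Primrec.fst.comp Primrec.snd)
    have e2 : Primrec (fun c : List Bool × (ℕ × ℕ) => (A c.1 c.2.1).isSome) :=
      Primrec.option_isSome.comp (hA.comp Primrec.fst (Primrec.fst.comp Primrec.snd))
    have e3 : Primrec (fun c : List Bool × (ℕ × ℕ) => (c.2.2 == c.2.1 && (A c.1 c.2.1).isSome)) :=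
      Primrec.and.comp e1 e2
    exact Primrec.cond e3 (Primrec.succ.comp (Primrec.fst.comp Primrec.snd))
      (Primrec.snd.comp Primrec.snd)
  have h2 : Primrec (runLen A) := by
    have := Primrec.nat_rec' (f := fun τ : List Bool => τ.length) Primrec.list_length
      (Primrec.const 0) h1
    exact this
  have h3 : Primrec₂ (fun (τ : List Bool) (i : ℕ) => (A τ i).getD false) :=
    Primrec.option_getD.comp hA (Primrec.const false)
  exact Primrec.list_map (Primrec.list_range.comp h2) h3

theorem BitApprox.run {A : List Bool → ℕ → Option Bool} {H : Cantor → Cantor}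
    (h : BitApprox A H) : StrApprox (run A) H where
  sound := fun X m => by
    rw [run_length]
    unfold Vale.Agent.Lib.P327.run preB
    apply List.map_congr_left
    intro i hi
    have hi' : i < runLen A ((List.range m).map X) := List.mem_range.1 hi
    have h1 := ((le_runLen_iff A _ _).1 le_rfl).2 i hi'
    obtain ⟨v, hv⟩ := Option.isSome_iff_exists.1 h1
    rw [hv]
    exact (h.sound X m i v hv).symm
  mono := fun X m m' hm => by
    rw [run_length, run_length, le_runLen_iff]
    have h1 := (le_runLen_iff A (preB X m) _).1 le_rfl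
    refine ⟨le_trans h1.1 (by simpa using hm), fun i hi => h.mono X m m' i hm (h1.2 i hi)⟩
  dense := fun l => by
    have key : ∀ l, Dense {X : Cantor | ∃ m, l ≤ m ∧ ∀ i, i < l → (A (preB X m) i).isSome} := by
      intro l
      induction l with
      | zero =>
        have : {X : Cantor | ∃ m, 0 ≤ m ∧ ∀ i, i < 0 → (A (preB X m) i).isSome} = univ := by
          ext X
          simp
        rw [this]
        exact dense_univ
      | succ l ih =>
        have ho : IsOpen {X : Cantor | ∃ m, (A (preB X m) l).isSome} :=
          isOpen_exists_preB (fun τ => (A τ l).isSome)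
        refine (Dense.inter_of_isOpen_left (h.dense l) ih ho).mono ?_
        rintro X ⟨⟨m₁, h1⟩, m₂, h2, h3⟩
        refine ⟨max (max m₁ m₂) (l + 1), le_max_right _ _, fun i hi => ?_⟩
        rcases Nat.lt_succ_iff_lt_or_eq.1 hi with hi | rfl
        · exact h.mono X m₂ _ i (le_trans (le_max_right _ _) (le_max_left _ _)) (h3 i hi)
        · exact h.mono X m₁ _ i (le_trans (le_max_left _ _) (le_max_left _ _)) h1
    refine (key l).mono ?_
    rintro X ⟨m, h1, h2⟩
    refine ⟨m, ?_⟩
    rw [run_length, le_runLen_iff]
    exact ⟨by simpa using h1, h2⟩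

end Vale.Agent.Lib.P327
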