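import Vale.Agent.Lib.P327.Generic

/-!
# Generic points determine a degree-preserving bijection
-/

namespace Vale.Agent.Lib.P327

open Encodable Set Filter Topology
open Nat.Partrec (Code)

theorem RecT.subst {O O' : Set (ℕ →. ℕ)} {f : ℕ → ℕ} (hf : RecT O f)
    (h : ∀ g ∈ O, Nat.RecursiveIn O' g) : RecT O' f :=
  Nat.RecursiveIn.subst hf h

theorem RecT.subst_single {O : Set (ℕ →. ℕ)} {f g : ℕ → ℕ}
    (hf : RecT {fun n => Part.some (g n)} f) (hg : RecT O g) : RecT O f := by
  refine RecT.subst hf ?_
  intro g' hg'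
  have : g' = fun n => Part.some (g n) := hg'
  rw [this]
  exact hg

theorem TR.refl (X : Cantor) : TR X X := RecT.oracle rfl

theorem TR.trans {X Y Z : Cantor} (h₁ : TR X Y) (h₂ : TR Y Z) : TR X Z :=
  RecT.subst_single h₁ h₂

/-- The join of two points. -/
def joinC (X Y : Cantor) : Cantor := fun n => if n % 2 = 0 then X (n / 2) else Y (n / 2)

/-- Bitwise exclusive or. -/
def xorC (X Y : Cantor) : Cantor := fun n => xor (X n) (Y n)

theorem RecT.joinC {O : Set (ℕ →. ℕ)} {X Y : Cantor} (hX : RecT O (chi X)) (hY : RecT O (chi Y)) :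
    RecT O (chi (joinC X Y)) := by
  have hK : Primrec (fun x : ℕ =>
      if x.unpair.2 % 2 = 0 then x.unpair.1.unpair.1 else x.unpair.1.unpair.2) := by
    have e1 : Primrec (fun x : ℕ => x.unpair.2 % 2) :=
      Primrec.nat_mod.comp (Primrec.snd.comp Primrec.unpair) (Primrec.const 2)
    have e2 : PrimrecPred (fun x : ℕ => x.unpair.2 % 2 = 0) :=
      Primrec.eq.comp e1 (Primrec.const 0)
    exact Primrec.ite e2
      (Primrec.fst.comp (Primrec.unpair.comp (Primrec.fst.comp Primrec.unpair)))
      (Primrec.snd.comp (Primrec.unpair.comp (Primrec.fst.comp Primrec.unpair)))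
  have hhalf : RecT O (fun n => n / 2) :=
    RecT.of_primrec' (Primrec.nat_div.comp Primrec.id (Primrec.const 2))
  have := (RecT.of_primrec' (O := O) hK).comp
    (((hX.comp hhalf).pair (hY.comp hhalf)).pair RecT.id')
  refine this.of_eq ?_
  intro n
  simp only [Nat.unpair_pair, chi, Vale.Agent.Lib.P327.joinC]
  split_ifs <;> rfl

theorem RecT.of_joinC_left {O : Set (ℕ →. ℕ)} {X Y : Cantor}
    (h : RecT O (chi (Vale.Agent.Lib.P327.joinC X Y))) : RecT O (chi X) := by
  have hd : RecT O (fun n => 2 * n) :=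
    RecT.of_primrec' (Primrec.nat_mul.comp (Primrec.const 2) Primrec.id)
  refine (h.comp hd).of_eq ?_
  intro n
  simp [chi, Vale.Agent.Lib.P327.joinC]

theorem RecT.of_joinC_right {O : Set (ℕ →. ℕ)} {X Y : Cantor}
    (h : RecT O (chi (Vale.Agent.Lib.P327.joinC X Y))) : RecT O (chi Y) := by
  have hd : RecT O (fun n => 2 * n + 1) :=
    RecT.of_primrec' (Primrec.succ.comp (Primrec.nat_mul.comp (Primrec.const 2) Primrec.id))
  refine (h.comp hd).of_eq ?_
  intro n
  have h1 : (2 * n + 1) % 2 = 1 := by omega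
  have h2 : (2 * n + 1) / 2 = n := by omega
  simp [chi, Vale.Agent.Lib.P327.joinC, h1, h2]

theorem RecT.xorC {O : Set (ℕ →. ℕ)} {X Y : Cantor} (hX : RecT O (chi X)) (hY : RecT O (chi Y)) :
    RecT O (chi (xorC X Y)) := by
  have hK : Primrec (fun x : ℕ => (x.unpair.1 + x.unpair.2) % 2) :=
    Primrec.nat_mod.comp (Primrec.nat_add.comp (Primrec.fst.comp Primrec.unpair)
      (Primrec.snd.comp Primrec.unpair)) (Primrec.const 2)
  refine ((RecT.of_primrec' (O := O) hK).comp (hX.pair hY)).of_eq ?_
  intro n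
  simp only [Nat.unpair_pair, chi, Vale.Agent.Lib.P327.xorC]
  cases X n <;> cases Y n <;> rfl

theorem xorC_xorC (X A : Cantor) : xorC (xorC X A) A = X := by
  funext n
  simp [xorC]

/-- Exclusive or with a fixed point, as a homeomorphism. -/
def xorHomeo (A : Cantor) : Cantor ≃ₜ Cantor where
  toFun := fun X => xorC X A
  invFun := fun X => xorC X A
  left_inv := fun X => xorC_xorC X A
  right_inv := fun X => xorC_xorC X A
  continuous_toFun := by
    refine continuous_pi fun n => ?_
    have : Continuous (fun b : Bool => xor b (A n)) := continuous_of_discreteTopology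
    exact this.comp (continuous_apply n)
  continuous_invFun := by
    refine continuous_pi fun n => ?_
    have : Continuous (fun b : Bool => xor b (A n)) := continuous_of_discreteTopology
    exact this.comp (continuous_apply n)

theorem orc_left (g₁ g₂ : ℕ → ℕ) : RecT (orc g₁ g₂) g₁ := RecT.oracle (Or.inl rfl)

theorem orc_right (g₁ g₂ : ℕ → ℕ) : RecT (orc g₁ g₂) g₂ := RecT.oracle (Or.inr rfl)

/-- The category analogue of a theorem of Sacks: a point recursive in `A` together with `G`, for
residually many `G`, is recursive in `A`. -/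
theorem TR_of_residual {A Z : Cantor}
    (h : ∀ᶠ G in residual Cantor, RecT (orc (chi A) (chi G)) (chi Z)) : TR Z A := by
  let P : Code → Set Cantor := fun c => {G |
    (∀ m₁ m₂ n v, strEval c (pre (chi A) m₁) (pre (chi G) m₂) n = some v → v = chi Z n) ∧
    (∀ n, ∃ m, ∀ m₁ m₂, m ≤ m₁ → m ≤ m₂ →
      strEval c (pre (chi A) m₁) (pre (chi G) m₂) n = some (chi Z n))}
  have h1 : ∀ᶠ G in residual Cantor, ∃ c, G ∈ P c := by
    refine h.mono ?_
    intro G hG
    obtain ⟨c, hs, hk⟩ := normal_form hG
    refine ⟨c, ?_, ?_⟩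
    · intro m₁ m₂ n v hv
      have := hs _ _ _ _ hv
      simpa using this
    · intro n
      exact hk n (chi Z n) (by simp)
  obtain ⟨c, Y₀, a, hd⟩ := baire_cyl P h1
  let σ : List Bool := preB Y₀ a
  let ψ : List ℕ → ℕ → ℕ → Option ℕ := fun α w n =>
    (decode (α := List Bool) w).bind (fun τ' => strEval c α (toN (σ ++ τ')) n)
  have hψ : Primrec (fun p : List ℕ × ℕ × ℕ => ψ p.1 p.2.1 p.2.2) := by
    have e1 : Primrec (fun p : List ℕ × ℕ × ℕ => decode (α := List Bool) p.2.1) :=
      Primrec.decode.comp (Primrec.fst.comp Primrec.snd)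
    have e2 : Primrec (fun q : (List ℕ × ℕ × ℕ) × List Bool => toN (σ ++ q.2)) :=
      toN_primrec.comp (Primrec.list_append.comp (Primrec.const σ) Primrec.snd)
    have e3 : Primrec (fun q : (List ℕ × ℕ × ℕ) × List Bool =>
        ((q.1.1, toN (σ ++ q.2)), q.1.2.2)) :=
      Primrec.pair (Primrec.pair (Primrec.fst.comp Primrec.fst) e2)
        (Primrec.snd.comp (Primrec.snd.comp Primrec.fst))
    have e4 : Primrec₂ (fun (p : List ℕ × ℕ × ℕ) (τ' : List Bool) =>
        strEval c p.1 (toN (σ ++ τ')) p.2.2) := (strEval_primrec c).comp e3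
    exact Primrec.option_bind e1 e4
  refine RecT.of_strings (g := chi A) (RecT.oracle rfl) ψ hψ.to_comp ?_ ?_
  · intro m w n v hv
    simp only [ψ] at hv
    cases hw : decode (α := List Bool) w with
    | none => simp [hw] at hv
    | some τ' =>
      rw [hw] at hv
      simp only [Option.bind_some] at hv
      -- the point `ext (σ ++ τ')` is in the cylinder
      have hY : ext (σ ++ τ') ∈ cyl Y₀ a := by
        intro i hi
        have : i < σ.length := by simpa [σ] using hi
        simp [ext, List.getD_eq_getElem?_getD, List.getElem?_append_left this, σ,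
          preB_getElem, hi]
      obtain ⟨G', hG'P, hG'c⟩ := hd _ hY (σ ++ τ').length
      have e : pre (chi G') (σ ++ τ').length = toN (σ ++ τ') := by
        rw [pre_chi, preB_eq_of_mem_cyl hG'c, preB_ext]
      rw [← e] at hv
      exact hG'P.1 _ _ _ _ hv
  · intro n
    obtain ⟨G', hG'P, hG'c⟩ := hd Y₀ (self_mem_cyl _ _) a
    obtain ⟨m₀, hm₀⟩ := hG'P.2 n
    refine ⟨max m₀ a, encode ((preB G' (max m₀ a)).drop a), ?_⟩
    simp only [ψ, encodek, Option.bind_some]
    have e : σ ++ (preB G' (max m₀ a)).drop a = preB G' (max m₀ a) := by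
      have h2 : σ = (preB G' (max m₀ a)).take a := by
        rw [preB_take _ (le_max_right _ _), preB_eq_of_mem_cyl hG'c]
      rw [h2]
      exact List.take_append_drop _ _
    rw [e, ← pre_chi, hm₀ _ _ (le_max_left _ _) (le_max_left _ _)]
    rfl

/-- If a bijection of Cantor space preserves and reflects Turing reducibility and does not
increase the degree of residually many points, then it does not increase any degree. -/
theorem TR_of_generic (F : Cantor ≃ Cantor) (hF : ∀ X Y, TR X Y ↔ TR (F X) (F Y))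
    (hgen : ∀ᶠ G in residual Cantor, TR (F G) G) (A : Cantor) : TR (F A) A := by
  refine TR_of_residual ?_
  have h2 : ∀ᶠ G in residual Cantor, TR (F (xorC G A)) (xorC G A) :=
    residual_homeo (xorHomeo A) hgen
  refine (hgen.and h2).mono ?_
  rintro G ⟨h3, h4⟩
  -- the join of `G` and `G + A`
  set J := joinC G (xorC G A) with hJ
  set Z := joinC (F G) (F (xorC G A)) with hZ
  have hAJ : TR A J := by
    have e1 : RecT {fun n => Part.some (chi J n)} (chi G) := RecT.of_joinC_left (TR.refl J)
    have e2 : RecT {fun n => Part.some (chi J n)} (chi (xorC G A)) :=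
      RecT.of_joinC_right (TR.refl J)
    have e3 := e1.xorC e2
    have e4 : xorC G (xorC G A) = A := by
      funext n
      simp [xorC]
    rw [e4] at e3
    exact e3
  have hZ₀ : F (F.symm Z) = Z := F.apply_symm_apply Z
  have h5 : TR G (F.symm Z) := by
    rw [hF, hZ₀]
    exact RecT.of_joinC_left (TR.refl Z)
  have h6 : TR (xorC G A) (F.symm Z) := by
    rw [hF, hZ₀]
    exact RecT.of_joinC_right (TR.refl Z)
  have h7 : TR J (F.symm Z) := RecT.joinC h5 h6
  have h8 : TR (F J) Z := by
    have := (hF _ _).1 h7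
    rwa [hZ₀] at this
  have h9 : TR (F A) Z := ((hF _ _).1 hAJ).trans h8
  -- `Z` is recursive in `A` and `G`
  have hG : RecT (orc (chi A) (chi G)) (chi G) := orc_right _ _
  have hA : RecT (orc (chi A) (chi G)) (chi A) := orc_left _ _
  have h10 : RecT (orc (chi A) (chi G)) (chi (F G)) := RecT.subst_single h3 hG
  have h11 : RecT (orc (chi A) (chi G)) (chi (F (xorC G A))) :=
    RecT.subst_single h4 (hG.xorC hA)
  exact RecT.subst_single h9 (h10.joinC h11)

end Vale.Agent.Lib.P327
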