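import Vale.Agent.Lib.P327.NormalForm

/-!
# Cantor space: strings, cylinders, moduli of continuity, Baire category
-/

namespace Vale.Agent.Lib.P327

open Encodable Set Filter Topology

/-- Cantor space. -/
abbrev Cantor := ℕ → Bool

/-- The characteristic function, with values in `ℕ`. -/
def chi (X : Cantor) : ℕ → ℕ := fun n => (X n).toNat

/-- The string of the first `m` bits of `X`. -/
def preB (X : Cantor) (m : ℕ) : List Bool := (List.range m).map X

/-- Strings of numbers to strings of bits. -/
def toB (α : List ℕ) : List Bool := α.map (fun x => x != 0)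

/-- Strings of bits to strings of numbers. -/
def toN (τ : List Bool) : List ℕ := τ.map Bool.toNat

/-- Extension of a string by zeros. -/
def ext (τ : List Bool) : Cantor := fun i => τ.getD i false

@[simp] theorem preB_length (X : Cantor) (m : ℕ) : (preB X m).length = m := by
  simp [preB]

theorem preB_getElem? (X : Cantor) (m n : ℕ) :
    (preB X m)[n]? = if n < m then some (X n) else none := by
  unfold preB
  by_cases h : n < m
  · simp [h]
  · simp [h]

theorem preB_getElem (X : Cantor) (m n : ℕ) (h : n < (preB X m).length) :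
    (preB X m)[n] = X n := by
  simp [preB]

theorem pre_chi (X : Cantor) (m : ℕ) : pre (chi X) m = toN (preB X m) := by
  simp [pre, toN, preB, chi]

theorem toB_toN (τ : List Bool) : toB (toN τ) = τ := by
  unfold toB toN
  rw [List.map_map]
  conv_rhs => rw [← List.map_id τ]
  apply List.map_congr_left
  intro b _
  cases b <;> simp

theorem toB_pre_chi (X : Cantor) (m : ℕ) : toB (pre (chi X) m) = preB X m := by
  rw [pre_chi, toB_toN]

theorem preB_eq_iff {X Y : Cantor} {m : ℕ} : preB X m = preB Y m ↔ ∀ i, i < m → X i = Y i := by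
  constructor
  · intro h i hi
    have h1 := congrArg (fun l => l[i]?) h
    simp only [preB_getElem?, hi, if_true] at h1
    exact Option.some.inj h1
  · intro h
    unfold preB
    apply List.map_congr_left
    intro i hi
    exact h i (List.mem_range.1 hi)

theorem preB_ext (τ : List Bool) : preB (ext τ) τ.length = τ := by
  apply List.ext_getElem?
  intro i
  rw [preB_getElem?]
  by_cases h : i < τ.length
  · simp [h, ext, List.getD_eq_getElem?_getD]
  · simp [h]

theorem preB_take (X : Cantor) {j m : ℕ} (h : j ≤ m) : (preB X m).take j = preB X j := by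
  apply List.ext_getElem?
  intro i
  rw [List.getElem?_take, preB_getElem?, preB_getElem?]
  by_cases h1 : i < j
  · have : i < m := lt_of_lt_of_le h1 h
    simp [h1, this]
  · simp [h1]

theorem preB_isPrefix (X : Cantor) {j m : ℕ} (h : j ≤ m) : preB X j <+: preB X m := by
  rw [← preB_take X h]
  exact List.take_prefix _ _

theorem toN_isPrefix {σ τ : List Bool} (h : σ <+: τ) : toN σ <+: toN τ := by
  obtain ⟨t, rfl⟩ := h
  exact ⟨toN t, by simp [toN]⟩

/-- The cylinder of all points that agree with `X` on the first `m` bits. -/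
def cyl (X : Cantor) (m : ℕ) : Set Cantor := {Y | ∀ i, i < m → Y i = X i}

theorem cyl_eq (X : Cantor) (m : ℕ) : cyl X m = PiNat.cylinder X m := by
  ext Y
  simp [cyl, PiNat.mem_cylinder_iff]

theorem isOpen_cyl (X : Cantor) (m : ℕ) : IsOpen (cyl X m) := by
  rw [cyl_eq]
  exact PiNat.isOpen_cylinder _ X m

theorem self_mem_cyl (X : Cantor) (m : ℕ) : X ∈ cyl X m := fun _ _ => rfl

theorem exists_cyl_subset {U : Set Cantor} (hU : IsOpen U) {X : Cantor} (hX : X ∈ U) :
    ∃ m, cyl X m ⊆ U := by
  obtain ⟨s, ⟨x, n, rfl⟩, hXs, hsU⟩ :=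
    (PiNat.isTopologicalBasis_cylinders (fun _ : ℕ => Bool)).exists_subset_of_mem_open hX hU
  refine ⟨n, ?_⟩
  rw [cyl_eq, PiNat.mem_cylinder_iff_eq.1 hXs]
  exact hsU

theorem cyl_mono (X : Cantor) {m m' : ℕ} (h : m ≤ m') : cyl X m' ⊆ cyl X m :=
  fun _ hY i hi => hY i (lt_of_lt_of_le hi h)

theorem cyl_subset_of_mem {X Y : Cantor} {m m' : ℕ} (hY : Y ∈ cyl X m) (h : m ≤ m') :
    cyl Y m' ⊆ cyl X m :=
  fun Z hZ i hi => (hZ i (lt_of_lt_of_le hi h)).trans (hY i hi)

/-- A continuous map from Cantor space to `Bool` depends on finitely many bits only. -/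
theorem exists_modulus_bool (f : Cantor → Bool) (hf : Continuous f) :
    ∃ u, ∀ Y Y' : Cantor, (∀ i, i < u → Y i = Y' i) → f Y = f Y' := by
  have h1 : ∀ X : Cantor, ∃ m, ∀ Y ∈ cyl X m, f Y = f X := by
    intro X
    have hU : IsOpen (f ⁻¹' {f X}) := (isOpen_discrete _).preimage hf
    obtain ⟨m, hm⟩ := exists_cyl_subset hU (X := X) rfl
    exact ⟨m, fun Y hY => hm hY⟩
  choose μ hμ using h1
  obtain ⟨t, ht⟩ := isCompact_univ.elim_nhds_subcover (fun X => cyl X (μ X))
    (fun X _ => (isOpen_cyl X (μ X)).mem_nhds (self_mem_cyl X _))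
  refine ⟨t.sup μ, fun Y Y' hYY' => ?_⟩
  have hY : Y ∈ ⋃ x ∈ t, cyl x (μ x) := ht.2 (mem_univ Y)
  simp only [mem_iUnion] at hY
  obtain ⟨x, hx, hYx⟩ := hY
  have hY'x : Y' ∈ cyl x (μ x) := by
    intro i hi
    rw [← hYY' i (lt_of_lt_of_le hi (Finset.le_sup hx))]
    exact hYx i hi
  rw [hμ x Y hYx, hμ x Y' hY'x]

/-- Uniform continuity of a continuous self-map of Cantor space. -/
theorem exists_modulus (K : Cantor → Cantor) (hK : Continuous K) (b : ℕ) :
    ∃ u, ∀ Y Y' : Cantor, (∀ i, i < u → Y i = Y' i) → ∀ n, n < b → K Y n = K Y' n := by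
  induction b with
  | zero => exact ⟨0, fun _ _ _ n hn => absurd hn (Nat.not_lt_zero _)⟩
  | succ b ih =>
    obtain ⟨u, hu⟩ := ih
    obtain ⟨u', hu'⟩ := exists_modulus_bool (fun Y => K Y b) ((continuous_apply b).comp hK)
    refine ⟨max u u', fun Y Y' h n hn => ?_⟩
    rcases Nat.lt_succ_iff_lt_or_eq.1 hn with hn | rfl
    · exact hu Y Y' (fun i hi => h i (lt_of_lt_of_le hi (le_max_left _ _))) n hn
    · exact hu' Y Y' (fun i hi => h i (lt_of_lt_of_le hi (le_max_right _ _)))

theorem residual_exists {p : Cantor → Prop} (h : ∀ᶠ X in residual Cantor, p X) : ∃ X, p X := by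
  have hd : Dense {X | p X} := dense_of_mem_residual h
  obtain ⟨X, hX⟩ := hd.nonempty
  exact ⟨X, hX⟩

/-- Baire category: if residually many points lie in a countable union, then one of the sets
is dense in a cylinder. -/
theorem baire_cyl {ι : Type*} [Countable ι] (P : ι → Set Cantor)
    (h : ∀ᶠ Y in residual Cantor, ∃ c, Y ∈ P c) :
    ∃ c, ∃ Y₀ : Cantor, ∃ a : ℕ, ∀ Y ∈ cyl Y₀ a, ∀ m, ∃ Y' ∈ P c, Y' ∈ cyl Y m := by
  by_contra hcon
  push_neg at hcon
  have h1 : ∀ c, ∀ᶠ Y in residual Cantor, Y ∉ closure (P c) := by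
    intro c
    have hopen : IsOpen (closure (P c))ᶜ := isClosed_closure.isOpen_compl
    have hdense : Dense (closure (P c))ᶜ := by
      rw [← interior_eq_empty_iff_dense_compl]
      by_contra hne
      obtain ⟨Y₀, hY₀⟩ := Set.nonempty_iff_ne_empty.2 hne
      obtain ⟨a, ha⟩ := exists_cyl_subset isOpen_interior hY₀
      obtain ⟨Y, hY, m, hm⟩ := hcon c Y₀ a
      have hYc : Y ∈ closure (P c) := interior_subset (ha hY)
      obtain ⟨Y', hY'1, hY'2⟩ := mem_closure_iff.1 hYc (cyl Y m) (isOpen_cyl Y m) (self_mem_cyl Y m)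
      exact hm Y' hY'2 hY'1
    exact residual_of_dense_open hopen hdense
  have h2 : ∀ᶠ Y in residual Cantor, ∀ c, Y ∉ closure (P c) := eventually_countable_forall.2 h1
  obtain ⟨Y, ⟨c, hc⟩, hY⟩ := residual_exists (h.and h2)
  exact hY c (subset_closure hc)

/-- The shift. -/
def shiftL (X : Cantor) : Cantor := fun n => X (n + 1)

/-- Putting a bit in front. -/
def consB (b : Bool) (X : Cantor) : Cantor := fun n => Nat.casesOn n b X

theorem shiftL_consB (b : Bool) (X : Cantor) : shiftL (consB b X) = X := rfl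

theorem consB_shiftL (X : Cantor) : consB (X 0) (shiftL X) = X := by
  funext n
  cases n <;> rfl

theorem continuous_shiftL : Continuous shiftL :=
  continuous_pi fun n => continuous_apply (n + 1)

theorem continuous_consB (b : Bool) : Continuous (consB b) := by
  refine continuous_pi fun n => ?_
  cases n with
  | zero => exact continuous_const
  | succ n => exact continuous_apply n

theorem isOpenMap_shiftL : IsOpenMap shiftL := by
  intro U hU
  have : shiftL '' U = (consB true ⁻¹' U) ∪ (consB false ⁻¹' U) := by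
    ext Z
    constructor
    · rintro ⟨X, hX, rfl⟩
      have := consB_shiftL X
      cases h0 : X 0 with
      | true => left; show consB true (shiftL X) ∈ U; rw [← h0, this]; exact hX
      | false => right; show consB false (shiftL X) ∈ U; rw [← h0, this]; exact hX
    · rintro (h | h)
      · exact ⟨_, h, shiftL_consB _ _⟩
      · exact ⟨_, h, shiftL_consB _ _⟩
  rw [this]
  exact (hU.preimage (continuous_consB true)).union (hU.preimage (continuous_consB false))

/-- Residual sets are preserved by homeomorphisms. -/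
theorem residual_homeo (e : Cantor ≃ₜ Cantor) {p : Cantor → Prop}
    (h : ∀ᶠ X in residual Cantor, p X) : ∀ᶠ X in residual Cantor, p (e X) := by
  obtain ⟨t, ht, hG, hd⟩ := mem_residual.1 h
  refine mem_residual.2 ⟨e ⁻¹' t, fun X hX => ht hX, hG.preimage e.continuous, ?_⟩
  exact hd.preimage e.isOpenMap

end Vale.Agent.Lib.P327
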