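import Mathlib

/-!
# The Turing degrees of subsets of `ℕ`, and uniformly `E₀`-invariant maps of Cantor space

A subset of `ℕ` is identified with its characteristic sequence `ℕ → Bool`, a point of Cantor space.
-/

namespace Vale.Agent.Lib.P327

/-- The characteristic function of `X`, as a (total) function with values `0`, `1` in `ℕ`. -/
def charFn (X : ℕ → Bool) : ℕ →. ℕ := fun n => Part.some (X n).toNat

/-- `X ≤_T Y`: the characteristic function of `X` is recursive in that of `Y`
(Mathlib's `TuringReducible`). -/
def TuringLE (X Y : ℕ → Bool) : Prop := TuringReducible (charFn X) (charFn Y)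

/-- Subsets of `ℕ`, preordered by Turing reducibility. -/
def SetsT : Type := ℕ → Bool

instance : Preorder SetsT where
  le X Y := TuringLE X Y
  le_refl X := TuringReducible.refl (charFn X)
  le_trans _ _ _ h₁ h₂ := TuringReducible.trans h₁ h₂

/-- The Turing degrees: the quotient of the subsets of `ℕ` by Turing equivalence, with the
order induced by Turing reducibility. -/
abbrev DegT : Type := Antisymmetrization SetsT (· ≤ ·)

/-- The Turing degree of `X`. -/
def degT (X : ℕ → Bool) : DegT := toAntisymmetrization (α := SetsT) (· ≤ ·) X

/-- `F` is uniformly `E₀`-invariant: for each `a` there is `b` such that whenever `X` and `Y`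
agree from `a` on, `F X` and `F Y` agree from `b` on. -/
def UniformlyE0Invariant (F : (ℕ → Bool) → (ℕ → Bool)) : Prop :=
  ∀ a : ℕ, ∃ b : ℕ, ∀ X Y : ℕ → Bool,
    (∀ n, a ≤ n → X n = Y n) → ∀ n, b ≤ n → F X n = F Y n

end Vale.Agent.Lib.P327
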