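import Vale.Agent.Lib.P327.Base

/-!
# Uniformly `E₀`-invariant maps
-/

namespace Vale.Agent.Lib.P327

open Encodable Set Filter Topology
open Nat.Partrec (Code)

/-- `H` is uniformly `E₀`-invariant: if `X` and `Y` agree from `a` on, then `H X` and `H Y` agree
from `b` on, where `b` only depends on `a`. -/
def UnifE0 (H : Cantor → Cantor) : Prop :=
  ∀ a : ℕ, ∃ b : ℕ, ∀ X Y : Cantor, (∀ n, a ≤ n → X n = Y n) → ∀ n, b ≤ n → H X n = H Y n

/-- Replace the first `a` bits of `Y` by those of `Y₀`. -/
def splice (Y₀ : Cantor) (a : ℕ) (Y : Cantor) : Cantor := fun i => if i < a then Y₀ i else Y i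

theorem splice_mem_cyl (Y₀ : Cantor) (a : ℕ) (Y : Cantor) : splice Y₀ a Y ∈ cyl Y₀ a := by
  intro i hi
  simp [splice, hi]

theorem splice_preB (Y₀ : Cantor) (a : ℕ) (Y : Cantor) {m : ℕ} (hm : a ≤ m) :
    preB Y₀ a ++ (preB Y m).drop a = preB (splice Y₀ a Y) m := by
  have h1 : preB Y₀ a = (preB (splice Y₀ a Y) m).take a := by
    rw [preB_take _ hm]
    exact (preB_eq_of_mem_cyl (splice_mem_cyl Y₀ a Y)).symm
  have h2 : (preB Y m).drop a = (preB (splice Y₀ a Y) m).drop a := by
    apply List.ext_getElem?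
    intro i
    rw [List.getElem?_drop, List.getElem?_drop, preB_getElem?, preB_getElem?]
    have : ¬ (a + i < a) := by omega
    simp [splice, this]
  rw [h1, h2]
  exact List.take_append_drop _ _

theorem chi_ne_zero (Z : Cantor) (n : ℕ) : (chi Z n != 0) = Z n := by
  unfold chi
  cases Z n <;> rfl

theorem exists_bitApprox (H : Cantor → Cantor) (hc : Continuous H) (hT : ∀ Y, TR (H Y) Y)
    (hE : UnifE0 H) : ∃ A : List Bool → ℕ → Option Bool, Primrec₂ A ∧ BitApprox A H := by
  let P : Code → Set Cantor := fun c => {Y |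
    (∀ m₁ m₂ n v, strEval c (pre (chi Y) m₁) (pre (chi Y) m₂) n = some v → v = chi (H Y) n) ∧
    (∀ n, ∃ m, ∀ m₁ m₂, m ≤ m₁ → m ≤ m₂ →
      strEval c (pre (chi Y) m₁) (pre (chi Y) m₂) n = some (chi (H Y) n))}
  have h1 : ∀ᶠ Y in residual Cantor, ∃ c, Y ∈ P c := by
    refine Filter.Eventually.of_forall ?_
    intro Y
    have h2 : RecT (orc (chi Y) (chi Y)) (chi (H Y)) := RecT.subst_single (hT Y) (orc_left _ _)
    obtain ⟨c, hs, hk⟩ := normal_form h2
    refine ⟨c, ?_, ?_⟩
    · intro m₁ m₂ n v hv
      have := hs _ _ _ _ hv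
      simpa using this
    · intro n
      exact hk n (chi (H Y) n) (by simp)
  obtain ⟨c, Y₀, a, hd⟩ := baire_cyl P h1
  -- soundness on the cylinder
  have hsound : ∀ Y ∈ cyl Y₀ a, ∀ m n v,
      strEval c (toN (preB Y m)) (toN (preB Y m)) n = some v → v = chi (H Y) n := by
    intro Y hY m n v hv
    obtain ⟨u, hu⟩ := exists_modulus H hc (n + 1)
    obtain ⟨Y', hY'P, hY'c⟩ := hd Y hY (max m u)
    have e1 : preB Y' m = preB Y m := preB_eq_of_mem_cyl (cyl_mono Y (le_max_left _ _) hY'c)
    rw [← e1, ← pre_chi] at hv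
    rw [hY'P.1 _ _ _ _ hv]
    unfold chi
    rw [hu Y' Y (fun i hi => hY'c i (lt_of_lt_of_le hi (le_max_right _ _))) n (Nat.lt_succ_self n)]
  have hdense : ∀ Y ∈ cyl Y₀ a, ∀ m n, ∃ Y' ∈ cyl Y m, ∃ m',
      (strEval c (toN (preB Y' m')) (toN (preB Y' m')) n).isSome := by
    intro Y hY m n
    obtain ⟨Y', hY'P, hY'c⟩ := hd Y hY m
    obtain ⟨m', hm'⟩ := hY'P.2 n
    refine ⟨Y', hY'c, m', ?_⟩
    rw [← pre_chi, hm' _ _ le_rfl le_rfl]
    rfl
  obtain ⟨b, hb⟩ := hE a
  obtain ⟨u, hu⟩ := exists_modulus H hc b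
  let σ : List Bool := preB Y₀ a
  let tbl : List Bool → List Bool := fun τ => preB (H (ext (τ.take u))) b
  have htbl : Primrec tbl := primrec_of_take u tbl (fun τ => by simp [tbl, List.take_take])
  let spS : List Bool → List ℕ := fun τ => toN (σ ++ τ.drop a)
  have hspS : Primrec spS :=
    toN_primrec.comp (Primrec.list_append.comp (Primrec.const σ)
      (Primrec.list_drop.comp (Primrec.const a) Primrec.id))
  let A : List Bool → ℕ → Option Bool := fun τ n =>
    if τ.length < max a u then none
    else if n < b then (tbl τ)[n]?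
    else (strEval c (spS τ) (spS τ) n).map (fun v => v != 0)
  have hA : Primrec₂ A := by
    have e1 : PrimrecPred (fun p : List Bool × ℕ => p.1.length < max a u) :=
      Primrec.nat_lt.comp (Primrec.list_length.comp Primrec.fst) (Primrec.const _)
    have e2 : PrimrecPred (fun p : List Bool × ℕ => p.2 < b) :=
      Primrec.nat_lt.comp Primrec.snd (Primrec.const _)
    have e3 : Primrec (fun p : List Bool × ℕ => (tbl p.1)[p.2]?) :=
      Primrec.list_getElem?.comp (htbl.comp Primrec.fst) Primrec.snd
    have e4 : Primrec (fun p : List Bool × ℕ => ((spS p.1, spS p.1), p.2)) :=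
      Primrec.pair (Primrec.pair (hspS.comp Primrec.fst) (hspS.comp Primrec.fst)) Primrec.snd
    have e5 : Primrec (fun p : List Bool × ℕ => strEval c (spS p.1) (spS p.1) p.2) :=
      (strEval_primrec c).comp e4
    have e6 : Primrec (fun x : ℕ => x != 0) := by
      have : Primrec (fun x : ℕ => !(x == 0)) :=
        Primrec.not.comp (Primrec.beq.comp Primrec.id (Primrec.const 0))
      exact this
    have e7 : Primrec (fun p : List Bool × ℕ =>
        (strEval c (spS p.1) (spS p.1) p.2).map (fun v => v != 0)) :=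
      Primrec.option_map e5 (e6.comp Primrec.snd).to₂
    exact Primrec.ite e1 (Primrec.const none) (Primrec.ite e2 e3 e7)
  have hspS' : ∀ (X : Cantor) (m : ℕ), a ≤ m → spS (preB X m) = toN (preB (splice Y₀ a X) m) := by
    intro X m hm
    simp only [spS, σ]
    rw [splice_preB Y₀ a X hm]
  refine ⟨A, hA, ?_, ?_, ?_⟩
  · -- soundness
    intro X m n v hv
    simp only [A, preB_length] at hv
    split_ifs at hv with h2 h3
    · -- table
      have hum : u ≤ m := le_trans (le_max_right _ _) (not_lt.1 h2)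
      simp only [tbl, preB_take X hum, preB_getElem?, h3, if_true] at hv
      rw [← Option.some.inj hv]
      exact (hu _ _ (ext_agree X u) n h3).symm
    · have ham : a ≤ m := le_trans (le_max_left _ _) (not_lt.1 h2)
      rw [hspS' X m ham] at hv
      obtain ⟨v', hv', rfl⟩ := Option.map_eq_some_iff.1 hv
      rw [hsound _ (splice_mem_cyl Y₀ a X) m n v' hv', chi_ne_zero]
      refine hb _ _ ?_ n (not_lt.1 h3)
      intro i hi
      simp [splice, not_lt.2 hi]
  · -- monotonicity
    intro X m m' n hmm' hs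
    simp only [A, preB_length] at hs ⊢
    split_ifs at hs with h2 h3
    · simp at hs
    · have h2' : ¬ m' < max a u := fun h => h2 (lt_of_le_of_lt hmm' h)
      simp only [h2', h3, if_false, if_true]
      simp [tbl, preB_getElem?, h3]
    · have h2' : ¬ m' < max a u := fun h => h2 (lt_of_le_of_lt hmm' h)
      simp only [h2', h3, if_false]
      have ham : a ≤ m := le_trans (le_max_left _ _) (not_lt.1 h2)
      rw [hspS' X m ham] at hs
      rw [hspS' X m' (le_trans ham hmm')]
      rw [Option.isSome_map] at hs ⊢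
      exact strEval_mono (toN_isPrefix (preB_isPrefix _ hmm')) (toN_isPrefix (preB_isPrefix _ hmm')) hs
  · -- density
    intro n
    by_cases h3 : n < b
    · have : {X : Cantor | ∃ m, (A (preB X m) n).isSome} = univ := by
        ext X
        simp only [mem_univ, iff_true]
        refine ⟨max a u, ?_⟩
        simp [A, tbl, preB_getElem?, h3]
      rw [this]
      exact dense_univ
    · rw [dense_iff_inter_open]
      rintro U hU ⟨X, hX⟩
      obtain ⟨k, hk⟩ := exists_cyl_subset hU hX
      obtain ⟨Y', hY'c, m', hm'⟩ := hdense _ (splice_mem_cyl Y₀ a X) (max k a) n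
      let X' : Cantor := fun i => if i < a then X i else Y' i
      have hX'k : X' ∈ cyl X k := by
        intro i hi
        by_cases hia : i < a
        · simp [X', hia]
        · simp only [X', hia, if_false]
          rw [hY'c i (lt_of_lt_of_le hi (le_max_left _ _))]
          simp [splice, hia]
      have hsp : splice Y₀ a X' = Y' := by
        funext i
        by_cases hia : i < a
        · simp only [splice, hia, if_true]
          rw [hY'c i (lt_of_lt_of_le hia (le_max_right _ _))]
          simp [splice, hia]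
        · simp [splice, X', hia]
      refine ⟨X', hk hX'k, max m' (max a u), ?_⟩
      have h2 : ¬ max m' (max a u) < max a u := not_lt.2 (le_max_right _ _)
      simp only [A, preB_length, h2, h3, if_false]
      rw [hspS' X' _ (le_trans (le_max_left _ _) (le_max_right _ _)), hsp, Option.isSome_map]
      exact strEval_mono (toN_isPrefix (preB_isPrefix _ (le_max_left _ _)))
        (toN_isPrefix (preB_isPrefix _ (le_max_left _ _))) hm'

theorem TR_shiftL (Z : Cantor) : TR (shiftL Z) Z := by
  have : RecT {fun n => Part.some (chi Z n)} (fun n => chi Z (n + 1)) :=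
    (TR.refl Z).comp (RecT.of_primrec' Primrec.succ)
  exact this

theorem UnifE0_shiftL : UnifE0 shiftL := by
  intro a
  refine ⟨a, fun X Y h n hn => ?_⟩
  exact h (n + 1) (Nat.le_succ_of_le hn)

theorem UnifE0.comp {H₁ H₂ : Cantor → Cantor} (h₂ : UnifE0 H₂) (h₁ : UnifE0 H₁) :
    UnifE0 (fun X => H₂ (H₁ X)) := by
  intro a
  obtain ⟨b, hb⟩ := h₁ a
  obtain ⟨d, hd⟩ := h₂ b
  exact ⟨d, fun X Y h => hd _ _ (hb X Y h)⟩

theorem half_main (F : Cantor ≃ₜ Cantor) (h₁ : UnifE0 F) (h₂ : UnifE0 F.symm)
    (hF : ∀ X Y, TR X Y ↔ TR (F X) (F Y)) (X : Cantor) : TR (F X) X := by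
  have hE : UnifE0 (conjShift F) := h₂.comp (UnifE0_shiftL.comp h₁)
  have hT : ∀ Y, TR (conjShift F Y) Y := by
    intro Y
    rw [hF]
    simp only [conjShift, Homeomorph.apply_symm_apply]
    exact TR_shiftL _
  obtain ⟨A, hA, hB⟩ := exists_bitApprox (conjShift F) (continuous_conjShift F) hT hE
  have hgen := generic_reduction F (run A) (run_primrec hA) hB.run
  exact TR_of_generic F.toEquiv hF hgen X

/-- Main theorem: a homeomorphism of Cantor space which is uniformly `E₀`-invariant together
with its inverse, and which preserves and reflects Turing reducibility, preserves every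
Turing degree. -/
theorem main_E0 (F : Cantor ≃ₜ Cantor) (h₁ : UnifE0 F) (h₂ : UnifE0 F.symm)
    (hF : ∀ X Y, TR X Y ↔ TR (F X) (F Y)) (X : Cantor) : TR (F X) X ∧ TR X (F X) := by
  refine ⟨half_main F h₁ h₂ hF X, ?_⟩
  have hF' : ∀ X Y, TR X Y ↔ TR (F.symm X) (F.symm Y) := by
    intro X Y
    rw [hF (F.symm X) (F.symm Y)]
    simp
  have := half_main F.symm h₂ (by simpa using h₁) hF' (F X)
  simpa using this

end Vale.Agent.Lib.P327
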