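import Vale.Agent.Lib.P327.Approx

/-!
# From an approximation of the conjugated shift to a reduction on a residual set
-/

namespace Vale.Agent.Lib.P327

open Encodable Set Filter Topology

/-- Turing reducibility of points of Cantor space (`X` is recursive in `Y`). -/
def TR (X Y : Cantor) : Prop := RecT {fun n => Part.some (chi Y n)} (chi X)

/-- A function on strings which only depends on the first `u` bits is primitive recursive. -/
theorem primrec_of_take {β : Type*} [Primcodable β] (u : ℕ) (f : List Bool → β)
    (hf : ∀ τ, f τ = f (τ.take u)) : Primrec f := by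
  induction u generalizing f with
  | zero =>
    have : f = fun _ => f [] := by
      funext τ
      rw [hf τ]
      simp
    rw [this]
    exact Primrec.const _
  | succ u ih =>
    have h1 : Primrec (fun t => f (true :: t)) := ih _ (fun t => by
      rw [hf (true :: t), hf (true :: t.take u)]
      simp [List.take_take])
    have h0 : Primrec (fun t => f (false :: t)) := ih _ (fun t => by
      rw [hf (false :: t), hf (false :: t.take u)]
      simp [List.take_take])
    have hstep : Primrec₂ (fun (_ : List Bool) (b : Bool × List Bool) =>
        bif b.1 then f (true :: b.2) else f (false :: b.2)) :=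
      Primrec.cond (Primrec.fst.comp Primrec.snd) (h1.comp (Primrec.snd.comp Primrec.snd))
        (h0.comp (Primrec.snd.comp Primrec.snd))
    have := Primrec.list_casesOn (f := fun τ : List Bool => τ) Primrec.id
      (Primrec.const (f [])) hstep
    refine this.of_eq ?_
    intro τ
    cases τ with
    | nil => rfl
    | cons b t => cases b <;> rfl

theorem toB_primrec : Primrec toB := by
  have h : Primrec (fun x : ℕ => x != 0) := by
    have : Primrec (fun x : ℕ => !(x == 0)) :=
      Primrec.not.comp (Primrec.beq.comp Primrec.id (Primrec.const 0))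
    exact this
  exact Primrec.list_map Primrec.id (h.comp Primrec.snd).to₂

theorem toN_primrec : Primrec toN := by
  have h : Primrec (fun b : Bool => b.toNat) := Primrec.dom_finite _
  exact Primrec.list_map Primrec.id (h.comp Primrec.snd).to₂

theorem ext_agree (X : Cantor) (w : ℕ) : ∀ i, i < w → ext (preB X w) i = X i := by
  intro i hi
  simp [ext, List.getD_eq_getElem?_getD, hi, preB_getElem]

/-- The conjugate of the shift by `F`. -/
def conjShift (F : Cantor ≃ₜ Cantor) (X : Cantor) : Cantor := F.symm (shiftL (F X))

theorem continuous_conjShift (F : Cantor ≃ₜ Cantor) : Continuous (conjShift F) :=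
  F.symm.continuous.comp (continuous_shiftL.comp F.continuous)

theorem isOpenMap_conjShift (F : Cantor ≃ₜ Cantor) : IsOpenMap (conjShift F) :=
  F.symm.isOpenMap.comp (isOpenMap_shiftL.comp F.isOpenMap)

theorem apply_iterate_conjShift (F : Cantor ≃ₜ Cantor) (X : Cantor) (n k : ℕ) :
    F ((conjShift F)^[n] X) k = F X (k + n) := by
  induction n generalizing X k with
  | zero => rfl
  | succ n ih =>
    rw [Function.iterate_succ_apply, ih]
    simp only [conjShift, Homeomorph.apply_symm_apply, shiftL]
    congr 1

/-- If the conjugate of the shift by `F` has a primitive recursive approximation on strings,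
then `F X` is recursive in `X` for residually many `X`. -/
theorem generic_reduction (F : Cantor ≃ₜ Cantor) (θ : List Bool → List Bool) (hθ : Primrec θ)
    (hA : StrApprox θ (conjShift F)) : ∀ᶠ X in residual Cantor, TR (F X) X := by
  obtain ⟨w, hw⟩ := exists_modulus_bool (fun Y => F Y 0) ((continuous_apply 0).comp F.continuous)
  have hit := fun n => hA.iterate (continuous_conjShift F) (isOpenMap_conjShift F) n
  -- the residual set
  have hres : ∀ᶠ X in residual Cantor, ∀ n, ∃ m, w ≤ (θ^[n] (preB X m)).length := by
    rw [eventually_countable_forall]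
    intro n
    exact residual_of_dense_open (isOpen_exists_preB (fun τ => w ≤ (θ^[n] τ).length))
      ((hit n).dense w)
  refine hres.mono ?_
  intro X hX
  -- the table
  let tb : List Bool → ℕ := fun τ => (F (ext (τ.take w)) 0).toNat
  have htb : Primrec tb := primrec_of_take w tb (fun τ => by simp [tb, List.take_take])
  let ψ : List ℕ → ℕ → ℕ → Option ℕ := fun α _ n =>
    if w ≤ (θ^[n] (toB α)).length then some (tb (θ^[n] (toB α))) else none
  have hψ : Primrec (fun p : List ℕ × ℕ × ℕ => ψ p.1 p.2.1 p.2.2) := by
    have e1 : Primrec (fun p : List ℕ × ℕ × ℕ => θ^[p.2.2] (toB p.1)) :=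
      Primrec.nat_iterate (Primrec.snd.comp Primrec.snd) (toB_primrec.comp Primrec.fst)
        (hθ.comp Primrec.snd).to₂
    have e2 : PrimrecPred (fun p : List ℕ × ℕ × ℕ => w ≤ (θ^[p.2.2] (toB p.1)).length) :=
      Primrec.nat_le.comp (Primrec.const w) (Primrec.list_length.comp e1)
    exact Primrec.ite e2 (Primrec.option_some.comp (htb.comp e1)) (Primrec.const none)
  refine RecT.of_strings (g := chi X) (RecT.oracle rfl) ψ hψ.to_comp ?_ ?_
  · intro m _ n v hv
    simp only [ψ, toB_pre_chi] at hv
    split_ifs at hv with h1
    have h2 := (hit n).sound X m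
    have hv' : tb (θ^[n] (preB X m)) = v := Option.some.inj hv
    rw [← hv']
    simp only [tb, chi]
    congr 1
    rw [h2, preB_take _ h1]
    rw [hw _ ((conjShift F)^[n] X) (ext_agree _ w), apply_iterate_conjShift]
    simp
  · intro n
    obtain ⟨m, hm⟩ := hX n
    refine ⟨m, 0, ?_⟩
    simp only [ψ, toB_pre_chi, hm, if_true]
    rfl

end Vale.Agent.Lib.P327
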