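import Vale.Agent.Lib.P327.Oracle

/-!
# A normal form for functions recursive in two total oracles

Every function recursive in `{g₁, g₂}` is computed by a plain recursive function acting on
finite initial segments of the oracles.
-/

namespace Vale.Agent.Lib.P327

open Encodable

/-- The oracle set consisting of two total functions. -/
def orc (g₁ g₂ : ℕ → ℕ) : Set (ℕ →. ℕ) :=
  {(fun n => Part.some (g₁ n)), (fun n => Part.some (g₂ n))}

theorem prec_partrec {ξf ξh : List ℕ × List ℕ → ℕ →. ℕ} (cf : Partrec₂ ξf) (ch : Partrec₂ ξh) :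
    Partrec₂ (fun (p : List ℕ × List ℕ) (n : ℕ) => (Nat.rec (ξf p n.unpair.1)
      (fun y IH => IH.bind fun i => ξh p (Nat.pair n.unpair.1 (Nat.pair y i))) n.unpair.2 :
        Part ℕ)) := by
  have c1 : Computable (fun a : (List ℕ × List ℕ) × ℕ => a.2.unpair.2) :=
    Computable.snd.comp (Computable.unpair.comp Computable.snd)
  have c2 : Partrec (fun a : (List ℕ × List ℕ) × ℕ => ξf a.1 a.2.unpair.1) :=
    cf.comp Computable.fst (Computable.fst.comp (Computable.unpair.comp Computable.snd))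
  have c3 : Computable (fun b : ((List ℕ × List ℕ) × ℕ) × (ℕ × ℕ) =>
      Nat.pair b.1.2.unpair.1 (Nat.pair b.2.1 b.2.2)) := by
    have e1 : Computable (fun b : ((List ℕ × List ℕ) × ℕ) × (ℕ × ℕ) => b.1.2.unpair.1) :=
      Computable.fst.comp (Computable.unpair.comp (Computable.snd.comp Computable.fst))
    have e2 : Computable (fun b : ((List ℕ × List ℕ) × ℕ) × (ℕ × ℕ) => Nat.pair b.2.1 b.2.2) :=
      (Primrec₂.natPair.to_comp).comp (Computable.fst.comp Computable.snd)
        (Computable.snd.comp Computable.snd)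
    exact (Primrec₂.natPair.to_comp).comp e1 e2
  have c4 : Partrec₂ (fun (a : (List ℕ × List ℕ) × ℕ) (b : ℕ × ℕ) =>
      ξh a.1 (Nat.pair a.2.unpair.1 (Nat.pair b.1 b.2))) := by
    have e3 : Computable (fun b : ((List ℕ × List ℕ) × ℕ) × (ℕ × ℕ) => b.1.1) :=
      Computable.fst.comp Computable.fst
    exact Partrec₂.comp ch e3 c3
  have := Partrec.nat_rec c1 c2 c4
  exact this

theorem rfind_partrec {ξf : List ℕ × List ℕ → ℕ →. ℕ} (cf : Partrec₂ ξf) :
    Partrec₂ (fun (p : List ℕ × List ℕ) (a : ℕ) =>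
      Nat.rfind (fun n => (ξf p (Nat.pair a n)).map (fun m => decide (m = 0)))) := by
  have e1 : Computable (fun b : ((List ℕ × List ℕ) × ℕ) × ℕ => b.1.1) :=
    Computable.fst.comp Computable.fst
  have e2 : Computable (fun b : ((List ℕ × List ℕ) × ℕ) × ℕ => Nat.pair b.1.2 b.2) :=
    (Primrec₂.natPair.to_comp).comp (Computable.snd.comp Computable.fst) Computable.snd
  have e3 : Partrec (fun b : ((List ℕ × List ℕ) × ℕ) × ℕ => ξf b.1.1 (Nat.pair b.1.2 b.2)) :=
    Partrec₂.comp cf e1 e2
  have e4 : Primrec (fun m : ℕ => decide (m = 0)) :=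
    (Primrec.eq.comp Primrec.id (Primrec.const 0)).decide
  have e5 : Computable₂ (fun (_ : ((List ℕ × List ℕ) × ℕ) × ℕ) (m : ℕ) => decide (m = 0)) :=
    (e4.comp Primrec.snd).to_comp
  have e6 : Partrec₂ (fun (a : (List ℕ × List ℕ) × ℕ) (n : ℕ) =>
      (ξf a.1 (Nat.pair a.2 n)).map (fun m => decide (m = 0))) := Partrec.map e3 e5
  have := Partrec.rfind e6
  exact this

theorem normal_form_part {g₁ g₂ : ℕ → ℕ} {f : ℕ →. ℕ}
    (h : Nat.RecursiveIn (orc g₁ g₂) f) :
    ∃ ξ : List ℕ × List ℕ → ℕ →. ℕ, Partrec₂ ξ ∧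
      (∀ m₁ m₂ n v, v ∈ ξ (pre g₁ m₁, pre g₂ m₂) n → v ∈ f n) ∧
      (∀ n v, v ∈ f n → ∃ m, ∀ m₁ m₂, m ≤ m₁ → m ≤ m₂ → v ∈ ξ (pre g₁ m₁, pre g₂ m₂) n) := by
  induction h with
  | zero =>
    refine ⟨fun _ _ => Part.some 0, (Computable.const 0).partrec, ?_, ?_⟩
    · intro m₁ m₂ n v hv
      exact hv
    · intro n v hv
      exact ⟨0, fun _ _ _ _ => hv⟩
  | succ =>
    refine ⟨fun _ n => Part.some (Nat.succ n), (Computable.succ.comp Computable.snd).partrec, ?_, ?_⟩
    · intro m₁ m₂ n v hv
      exact hv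
    · intro n v hv
      exact ⟨0, fun _ _ _ _ => hv⟩
  | left =>
    refine ⟨fun _ n => Part.some (Nat.unpair n).1,
      (Computable.fst.comp (Computable.unpair.comp Computable.snd)).partrec, ?_, ?_⟩
    · intro m₁ m₂ n v hv
      exact hv
    · intro n v hv
      exact ⟨0, fun _ _ _ _ => hv⟩
  | right =>
    refine ⟨fun _ n => Part.some (Nat.unpair n).2,
      (Computable.snd.comp (Computable.unpair.comp Computable.snd)).partrec, ?_, ?_⟩
    · intro m₁ m₂ n v hv
      exact hv
    · intro n v hv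
      exact ⟨0, fun _ _ _ _ => hv⟩
  | oracle g hg =>
    rcases hg with rfl | hg
    · refine ⟨fun p n => (p.1[n]? : Option ℕ), ?_, ?_, ?_⟩
      · exact Computable.ofOption
          ((Primrec.list_getElem?.comp (Primrec.fst.comp Primrec.fst) Primrec.snd).to_comp)
      · intro m₁ m₂ n v hv
        simp only [pre_getElem?, Part.mem_ofOption] at hv
        split_ifs at hv with h1
        · simp at hv
          simp [hv]
        · simp at hv
      · intro n v hv
        refine ⟨n + 1, fun m₁ m₂ h1 _ => ?_⟩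
        simp only [pre_getElem?, Part.mem_ofOption]
        have : n < m₁ := h1
        simp at hv
        simp [this, hv]
    · have hg' : g = (fun n => Part.some (g₂ n)) := hg
      subst hg'
      refine ⟨fun p n => (p.2[n]? : Option ℕ), ?_, ?_, ?_⟩
      · exact Computable.ofOption
          ((Primrec.list_getElem?.comp (Primrec.snd.comp Primrec.fst) Primrec.snd).to_comp)
      · intro m₁ m₂ n v hv
        simp only [pre_getElem?, Part.mem_ofOption] at hv
        split_ifs at hv with h1
        · simp at hv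
          simp [hv]
        · simp at hv
      · intro n v hv
        refine ⟨n + 1, fun m₁ m₂ _ h1 => ?_⟩
        simp only [pre_getElem?, Part.mem_ofOption]
        have : n < m₂ := h1
        simp at hv
        simp [this, hv]
  | @pair f h _ _ ihf ihh =>
    obtain ⟨ξf, cf, sf, kf⟩ := ihf
    obtain ⟨ξh, ch, sh, kh⟩ := ihh
    refine ⟨fun p n => (ξf p n).bind (fun x => (ξh p n).map (fun y => Nat.pair x y)), ?_, ?_, ?_⟩
    · refine Partrec.bind cf ?_
      refine Partrec.map (ch.comp (Computable.fst.comp Computable.fst)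
        (Computable.snd.comp Computable.fst)) ?_
      exact (Primrec₂.natPair.comp (Primrec.snd.comp Primrec.fst) Primrec.snd).to_comp
    · intro m₁ m₂ n v hv
      simp only [Part.mem_bind_iff, Part.mem_map_iff] at hv
      obtain ⟨x, hx, y, hy, rfl⟩ := hv
      simp only [Seq.seq, Part.map_eq_map, Part.bind_map, Part.mem_bind_iff, Part.mem_map_iff]
      exact ⟨x, sf _ _ _ _ hx, y, sh _ _ _ _ hy, rfl⟩
    · intro n v hv
      simp only [Seq.seq, Part.map_eq_map, Part.bind_map, Part.mem_bind_iff, Part.mem_map_iff] at hv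
      obtain ⟨x, hx, y, hy, rfl⟩ := hv
      obtain ⟨a, ha⟩ := kf _ _ hx
      obtain ⟨b, hb⟩ := kh _ _ hy
      refine ⟨max a b, fun m₁ m₂ h1 h2 => ?_⟩
      simp only [Part.mem_bind_iff, Part.mem_map_iff]
      exact ⟨x, ha _ _ (le_trans (le_max_left _ _) h1) (le_trans (le_max_left _ _) h2), y,
        hb _ _ (le_trans (le_max_right _ _) h1) (le_trans (le_max_right _ _) h2), rfl⟩
  | @comp f h _ _ ihf ihh =>
    obtain ⟨ξf, cf, sf, kf⟩ := ihf
    obtain ⟨ξh, ch, sh, kh⟩ := ihh
    refine ⟨fun p n => (ξh p n).bind (fun x => ξf p x), ?_, ?_, ?_⟩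
    · refine Partrec.bind ch ?_
      exact cf.comp (Computable.fst.comp Computable.fst) Computable.snd
    · intro m₁ m₂ n v hv
      simp only [Part.mem_bind_iff] at hv
      obtain ⟨x, hx, hv⟩ := hv
      exact Part.mem_bind_iff.2 ⟨x, sh _ _ _ _ hx, sf _ _ _ _ hv⟩
    · intro n v hv
      obtain ⟨x, hx, hv⟩ := Part.mem_bind_iff.1 hv
      obtain ⟨a, ha⟩ := kh _ _ hx
      obtain ⟨b, hb⟩ := kf _ _ hv
      refine ⟨max a b, fun m₁ m₂ h1 h2 => ?_⟩
      simp only [Part.mem_bind_iff]
      exact ⟨x, ha _ _ (le_trans (le_max_left _ _) h1) (le_trans (le_max_left _ _) h2),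
        hb _ _ (le_trans (le_max_right _ _) h1) (le_trans (le_max_right _ _) h2)⟩
  | @prec f h _ _ ihf ihh =>
    obtain ⟨ξf, cf, sf, kf⟩ := ihf
    obtain ⟨ξh, ch, sh, kh⟩ := ihh
    refine ⟨fun p n => Nat.rec (ξf p n.unpair.1)
      (fun y IH => IH.bind fun i => ξh p (Nat.pair n.unpair.1 (Nat.pair y i))) n.unpair.2,
      ?_, ?_, ?_⟩
    · exact prec_partrec cf ch
    · intro m₁ m₂ n v hv
      change v ∈ (Nat.rec (f n.unpair.1)
        (fun y IH => Part.bind IH fun i => h (Nat.pair n.unpair.1 (Nat.pair y i))) n.unpair.2 :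
          Part ℕ)
      simp only [] at hv
      generalize n.unpair.2 = k at hv ⊢
      induction k generalizing v with
      | zero => exact sf _ _ _ _ hv
      | succ k ih =>
        simp only [Part.mem_bind_iff] at hv
        obtain ⟨i, hi, hv⟩ := hv
        exact Part.mem_bind_iff.2 ⟨i, ih _ hi, sh _ _ _ _ hv⟩
    · intro n v hv
      change v ∈ (Nat.rec (f n.unpair.1)
        (fun y IH => Part.bind IH fun i => h (Nat.pair n.unpair.1 (Nat.pair y i))) n.unpair.2 :
          Part ℕ) at hv
      simp only []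
      generalize n.unpair.2 = k at hv ⊢
      induction k generalizing v with
      | zero => exact kf _ _ hv
      | succ k ih =>
        obtain ⟨i, hi, hv⟩ := Part.mem_bind_iff.1 hv
        obtain ⟨a, ha⟩ := ih _ hi
        obtain ⟨b, hb⟩ := kh _ _ hv
        refine ⟨max a b, fun m₁ m₂ h1 h2 => ?_⟩
        simp only [Part.mem_bind_iff]
        exact ⟨i, ha _ _ (le_trans (le_max_left _ _) h1) (le_trans (le_max_left _ _) h2),
          hb _ _ (le_trans (le_max_right _ _) h1) (le_trans (le_max_right _ _) h2)⟩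
  | @rfind f _ ihf =>
    obtain ⟨ξf, cf, sf, kf⟩ := ihf
    refine ⟨fun p a => Nat.rfind (fun n => (ξf p (Nat.pair a n)).map (fun m => decide (m = 0))),
      ?_, ?_, ?_⟩
    · exact rfind_partrec cf
    · intro m₁ m₂ a v hv
      obtain ⟨h1, h2⟩ := Nat.mem_rfind.1 hv
      refine Nat.mem_rfind.2 ⟨?_, ?_⟩
      · simp only [Part.mem_map_iff] at h1
        obtain ⟨x, hx, hx0⟩ := h1
        simp only [Part.map_eq_map, Part.mem_map_iff]
        exact ⟨x, sf _ _ _ _ hx, hx0⟩
      · intro j hj
        have h3 := h2 hj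
        simp only [Part.mem_map_iff] at h3
        obtain ⟨x, hx, hx0⟩ := h3
        simp only [Part.map_eq_map, Part.mem_map_iff]
        exact ⟨x, sf _ _ _ _ hx, hx0⟩
    · intro a v hv
      obtain ⟨h1, h2⟩ := Nat.mem_rfind.1 hv
      -- a common bound for all `j ≤ v`
      have key : ∀ j, j ≤ v → ∃ x, x ∈ f (Nat.pair a j) ∧ decide (x = 0) = decide (j = v) := by
        intro j hj
        rcases lt_or_eq_of_le hj with hj | rfl
        · have h3 := h2 hj
          simp only [Part.map_eq_map, Part.mem_map_iff] at h3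
          obtain ⟨x, hx, hx0⟩ := h3
          refine ⟨x, hx, ?_⟩
          rw [hx0]
          simp [hj.ne]
        · simp only [Part.map_eq_map, Part.mem_map_iff] at h1
          obtain ⟨x, hx, hx0⟩ := h1
          exact ⟨x, hx, by simp [hx0]⟩
      have bound : ∀ k, ∃ m, ∀ j, j < k → j ≤ v → ∀ m₁ m₂, m ≤ m₁ → m ≤ m₂ →
          ∃ x, x ∈ ξf (pre g₁ m₁, pre g₂ m₂) (Nat.pair a j) ∧
            decide (x = 0) = decide (j = v) := by
        intro k
        induction k with
        | zero => exact ⟨0, fun j hj => absurd hj (Nat.not_lt_zero _)⟩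
        | succ k ih =>
          obtain ⟨m, hm⟩ := ih
          by_cases hk : k ≤ v
          · obtain ⟨x, hx, hx0⟩ := key k hk
            obtain ⟨m', hm'⟩ := kf _ _ hx
            refine ⟨max m m', fun j hj hjv m₁ m₂ h1 h2 => ?_⟩
            rcases Nat.lt_succ_iff_lt_or_eq.1 hj with hj | rfl
            · exact hm j hj hjv _ _ (le_trans (le_max_left _ _) h1) (le_trans (le_max_left _ _) h2)
            · exact ⟨x, hm' _ _ (le_trans (le_max_right _ _) h1)
                (le_trans (le_max_right _ _) h2), hx0⟩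
          · refine ⟨m, fun j hj hjv m₁ m₂ h1 h2 => ?_⟩
            rcases Nat.lt_succ_iff_lt_or_eq.1 hj with hj | rfl
            · exact hm j hj hjv _ _ h1 h2
            · exact absurd hjv hk
      obtain ⟨m, hm⟩ := bound (v + 1)
      refine ⟨m, fun m₁ m₂ h1' h2' => Nat.mem_rfind.2 ⟨?_, ?_⟩⟩
      · obtain ⟨x, hx, hx0⟩ := hm v (Nat.lt_succ_self v) le_rfl m₁ m₂ h1' h2'
        simp only [Part.mem_map_iff]
        exact ⟨x, hx, by simpa using hx0⟩
      · intro j hj
        obtain ⟨x, hx, hx0⟩ := hm j (Nat.lt_succ_of_lt hj) hj.le m₁ m₂ h1' h2'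
        simp only [Part.mem_map_iff]
        refine ⟨x, hx, ?_⟩
        rw [hx0]
        simp [hj.ne]

/-- The first success among `f 0, …, f (k-1)`. -/
def firstSome (f : ℕ → Option ℕ) (k : ℕ) : Option ℕ :=
  Nat.rec (motive := fun _ => Option ℕ) none (fun j IH => IH <|> f j) k

theorem firstSome_succ (f : ℕ → Option ℕ) (k : ℕ) :
    firstSome f (k + 1) = (firstSome f k <|> f k) := rfl

theorem firstSome_eq_some {f : ℕ → Option ℕ} {k v : ℕ} (h : firstSome f k = some v) :
    ∃ j, j < k ∧ f j = some v := by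
  induction k with
  | zero => simp [firstSome] at h
  | succ k ih =>
    rw [firstSome_succ] at h
    cases h1 : firstSome f k with
    | none =>
      rw [h1] at h
      exact ⟨k, Nat.lt_succ_self k, by simpa using h⟩
    | some w =>
      rw [h1] at h
      have : w = v := by simpa using h
      subst this
      obtain ⟨j, hj, hv⟩ := ih h1
      exact ⟨j, Nat.lt_succ_of_lt hj, hv⟩

theorem firstSome_isSome {f : ℕ → Option ℕ} {k j : ℕ} (hj : j < k) (h : (f j).isSome) :
    (firstSome f k).isSome := by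
  induction k with
  | zero => exact absurd hj (Nat.not_lt_zero _)
  | succ k ih =>
    rw [firstSome_succ]
    rcases Nat.lt_succ_iff_lt_or_eq.1 hj with hj | rfl
    · have := ih hj
      obtain ⟨w, hw⟩ := Option.isSome_iff_exists.1 this
      simp [hw]
    · cases h1 : firstSome f j with
      | none => simpa using h
      | some w => simp

open Nat.Partrec (Code)

/-- Evaluation of the code `c` on finite initial segments of two oracles: the step bound is the
common length `s` of the two strings, and all pairs of initial segments of length `j ≤ s` of the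
two strings are tried. -/
def strEval (c : Code) (α₁ α₂ : List ℕ) (n : ℕ) : Option ℕ :=
  firstSome (fun j => Code.evaln (min α₁.length α₂.length) c
    (encode ((α₁.take j, α₂.take j), n))) (min α₁.length α₂.length + 1)

theorem strEval_primrec (c : Code) :
    Primrec (fun a : (List ℕ × List ℕ) × ℕ => strEval c a.1.1 a.1.2 a.2) := by
  have hs : Primrec (fun a : (List ℕ × List ℕ) × ℕ => min a.1.1.length a.1.2.length) :=
    Primrec.nat_min.comp (Primrec.list_length.comp (Primrec.fst.comp Primrec.fst))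
      (Primrec.list_length.comp (Primrec.snd.comp Primrec.fst))
  have hs1 : Primrec (fun a : (List ℕ × List ℕ) × ℕ => min a.1.1.length a.1.2.length + 1) :=
    Primrec.succ.comp hs
  have ht1 : Primrec (fun b : ((List ℕ × List ℕ) × ℕ) × (ℕ × Option ℕ) => b.1.1.1.take b.2.1) :=
    Primrec.list_take.comp (Primrec.fst.comp Primrec.snd)
      (Primrec.fst.comp (Primrec.fst.comp Primrec.fst))
  have ht2 : Primrec (fun b : ((List ℕ × List ℕ) × ℕ) × (ℕ × Option ℕ) => b.1.1.2.take b.2.1) :=
    Primrec.list_take.comp (Primrec.fst.comp Primrec.snd)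
      (Primrec.snd.comp (Primrec.fst.comp Primrec.fst))
  have he : Primrec (fun b : ((List ℕ × List ℕ) × ℕ) × (ℕ × Option ℕ) =>
      encode ((b.1.1.1.take b.2.1, b.1.1.2.take b.2.1), b.1.2)) :=
    Primrec.encode.comp (Primrec.pair (Primrec.pair ht1 ht2) (Primrec.snd.comp Primrec.fst))
  have hev : Primrec (fun b : ((List ℕ × List ℕ) × ℕ) × (ℕ × Option ℕ) =>
      Code.evaln (min b.1.1.1.length b.1.1.2.length) c
        (encode ((b.1.1.1.take b.2.1, b.1.1.2.take b.2.1), b.1.2))) :=
    Code.primrec_evaln.comp (Primrec.pair (Primrec.pair (hs.comp Primrec.fst) (Primrec.const c)) he)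
  have hstep : Primrec₂ (fun (a : (List ℕ × List ℕ) × ℕ) (b : ℕ × Option ℕ) =>
      (b.2 <|> Code.evaln (min a.1.1.length a.1.2.length) c
        (encode ((a.1.1.take b.1, a.1.2.take b.1), a.2)))) :=
    Primrec.option_orElse.comp (Primrec.snd.comp Primrec.snd) hev
  have := Primrec.nat_rec' hs1 (Primrec.const (none : Option ℕ)) hstep
  exact this

theorem strEval_eq_some {c : Code} {α₁ α₂ : List ℕ} {n v : ℕ} (h : strEval c α₁ α₂ n = some v) :
    ∃ j, j ≤ min α₁.length α₂.length ∧ v ∈ c.eval (encode ((α₁.take j, α₂.take j), n)) := by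
  obtain ⟨j, hj, hv⟩ := firstSome_eq_some h
  exact ⟨j, Nat.lt_succ_iff.1 hj, Code.evaln_sound (Option.mem_def.2 hv)⟩

theorem strEval_isSome_of {c : Code} {α₁ α₂ : List ℕ} {n v j k : ℕ}
    (hj : j ≤ min α₁.length α₂.length) (hk : k ≤ min α₁.length α₂.length)
    (h : v ∈ Code.evaln k c (encode ((α₁.take j, α₂.take j), n))) :
    (strEval c α₁ α₂ n).isSome := by
  refine firstSome_isSome (j := j) (Nat.lt_succ_iff.2 hj) ?_
  have := Code.evaln_mono hk h
  exact Option.isSome_iff_exists.2 ⟨v, Option.mem_def.1 this⟩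

theorem strEval_mono {c : Code} {α₁ α₂ β₁ β₂ : List ℕ} {n : ℕ} (h₁ : α₁ <+: β₁) (h₂ : α₂ <+: β₂)
    (h : (strEval c α₁ α₂ n).isSome) : (strEval c β₁ β₂ n).isSome := by
  obtain ⟨v, hv⟩ := Option.isSome_iff_exists.1 h
  obtain ⟨j, hj, hv⟩ := firstSome_eq_some hv
  have hj' : j ≤ min α₁.length α₂.length := Nat.lt_succ_iff.1 hj
  have hle : min α₁.length α₂.length ≤ min β₁.length β₂.length :=
    min_le_min h₁.length_le h₂.length_le
  have e1 : β₁.take j = α₁.take j := by
    obtain ⟨t, rfl⟩ := h₁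
    exact List.take_append_of_le_length (le_trans hj' (min_le_left _ _))
  have e2 : β₂.take j = α₂.take j := by
    obtain ⟨t, rfl⟩ := h₂
    exact List.take_append_of_le_length (le_trans hj' (min_le_right _ _))
  refine strEval_isSome_of (v := v) (j := j) (k := min α₁.length α₂.length)
    (le_trans hj' hle) hle ?_
  rw [e1, e2]
  exact Option.mem_def.2 hv

/-- Normal form: a function recursive in two total oracles is computed by `strEval c`. -/
theorem normal_form {g₁ g₂ : ℕ → ℕ} {f : ℕ →. ℕ} (h : Nat.RecursiveIn (orc g₁ g₂) f) :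
    ∃ c : Code,
      (∀ m₁ m₂ n v, strEval c (pre g₁ m₁) (pre g₂ m₂) n = some v → v ∈ f n) ∧
      (∀ n v, v ∈ f n → ∃ m, ∀ m₁ m₂, m ≤ m₁ → m ≤ m₂ →
        strEval c (pre g₁ m₁) (pre g₂ m₂) n = some v) := by
  obtain ⟨ξ, cξ, sξ, kξ⟩ := normal_form_part h
  obtain ⟨c, hc⟩ := Code.exists_code.1 cξ
  have hc' : ∀ (p : List ℕ × List ℕ) (n : ℕ), c.eval (encode (p, n)) = ξ p n := by
    intro p n
    rw [hc]
    simp only [Encodable.encodek, Part.coe_some, Part.bind_some]
    simp [Part.map_id']
  have sound : ∀ m₁ m₂ n v, strEval c (pre g₁ m₁) (pre g₂ m₂) n = some v → v ∈ f n := by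
    intro m₁ m₂ n v hv
    obtain ⟨j, hj, hv⟩ := strEval_eq_some hv
    rw [hc'] at hv
    simp only [pre_length] at hj
    rw [pre_take g₁ (le_trans hj (min_le_left _ _)),
      pre_take g₂ (le_trans hj (min_le_right _ _))] at hv
    exact sξ _ _ _ _ hv
  refine ⟨c, sound, ?_⟩
  intro n v hv
  obtain ⟨m, hm⟩ := kξ n v hv
  have h1 := hm m m le_rfl le_rfl
  rw [← hc'] at h1
  obtain ⟨k, hk⟩ := Code.evaln_complete.1 h1
  refine ⟨max m k, fun m₁ m₂ h₁ h₂ => ?_⟩
  have hmin : max m k ≤ min (pre g₁ m₁).length (pre g₂ m₂).length := by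
    simp only [pre_length]
    exact le_min h₁ h₂
  have hs : (strEval c (pre g₁ m₁) (pre g₂ m₂) n).isSome := by
    refine strEval_isSome_of (v := v) (j := m) (k := k) (le_trans (le_max_left _ _) hmin)
      (le_trans (le_max_right _ _) hmin) ?_
    rw [pre_take g₁ (le_trans (le_max_left _ _) h₁), pre_take g₂ (le_trans (le_max_left _ _) h₂)]
    exact hk
  obtain ⟨w, hw⟩ := Option.isSome_iff_exists.1 hs
  have := Part.mem_unique (sound _ _ _ _ hw) hv
  rw [hw, this]

end Vale.Agent.Lib.P327
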