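import Mathlib

/-!
# Total functions recursive in a set of oracles

A small API on top of `Nat.RecursiveIn` for total functions `ℕ → ℕ`.
-/

namespace Vale.Agent.Lib.P327

open Nat Encodable

/-- A total function `ℕ → ℕ` that is recursive in the oracle set `O`. -/
def RecT (O : Set (ℕ →. ℕ)) (f : ℕ → ℕ) : Prop :=
  Nat.RecursiveIn O (fun n => Part.some (f n))

namespace RecT

variable {O : Set (ℕ →. ℕ)} {f g h : ℕ → ℕ}

theorem of_eq (hf : RecT O f) (H : ∀ n, f n = g n) : RecT O g := by
  have : f = g := funext H
  exact this ▸ hf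

theorem of_primrec (hf : Nat.Primrec f) : RecT O f :=
  Nat.Primrec.recursiveIn hf

theorem of_primrec' (hf : Primrec f) : RecT O f :=
  of_primrec (Primrec.nat_iff.1 hf)

theorem of_computable (hf : Computable f) : RecT O f :=
  Nat.Partrec.recursiveIn (Partrec.nat_iff.1 hf)

theorem oracle (hf : (fun n => Part.some (f n)) ∈ O) : RecT O f :=
  Nat.RecursiveIn.oracle _ hf

theorem comp (hf : RecT O f) (hg : RecT O g) : RecT O (fun n => f (g n)) := by
  refine Nat.RecursiveIn.of_eq (Nat.RecursiveIn.comp hf hg) ?_
  intro n
  simp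

theorem pair (hf : RecT O f) (hg : RecT O g) : RecT O (fun n => Nat.pair (f n) (g n)) := by
  refine Nat.RecursiveIn.of_eq (Nat.RecursiveIn.pair hf hg) ?_
  intro n
  simp [Seq.seq]

theorem id' : RecT O (fun n => n) := of_primrec' Primrec.id

theorem const (c : ℕ) : RecT O (fun _ => c) := of_primrec' (Primrec.const c)

theorem left : RecT O (fun n => n.unpair.1) := Nat.RecursiveIn.left

theorem right : RecT O (fun n => n.unpair.2) := Nat.RecursiveIn.right

theorem prec (hf : RecT O f) (hh : RecT O h) :
    RecT O (fun p => Nat.rec (f p.unpair.1)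
      (fun y IH => h (Nat.pair p.unpair.1 (Nat.pair y IH))) p.unpair.2) := by
  refine Nat.RecursiveIn.of_eq (Nat.RecursiveIn.prec hf hh) ?_
  intro p
  simp only []
  generalize p.unpair.2 = k
  induction k with
  | zero => simp
  | succ k ih =>
    show Part.bind _ _ = _
    rw [ih]
    simp

theorem find (hf : RecT O f) (H : ∀ a, ∃ n, f (Nat.pair a n) = 0) :
    RecT O (fun a => Nat.find (H a)) := by
  refine Nat.RecursiveIn.of_eq (Nat.RecursiveIn.rfind hf) ?_
  intro a
  refine Part.eq_some_iff.2 (Nat.mem_rfind.2 ⟨?_, ?_⟩)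
  · simp [Nat.find_spec (H a)]
  · intro m hm
    have := Nat.find_min (H a) hm
    simp [this]

end RecT

/-- The list of the first `m` values of `g`. -/
def pre (g : ℕ → ℕ) (m : ℕ) : List ℕ := (List.range m).map g

theorem pre_succ (g : ℕ → ℕ) (m : ℕ) : pre g (m + 1) = pre g m ++ [g m] := by
  simp [pre, List.range_succ]

@[simp] theorem pre_length (g : ℕ → ℕ) (m : ℕ) : (pre g m).length = m := by
  simp [pre]

theorem pre_getElem? (g : ℕ → ℕ) (m n : ℕ) :
    (pre g m)[n]? = if n < m then some (g n) else none := by
  unfold pre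
  by_cases h : n < m
  · simp [h]
  · simp [h]

theorem pre_take (g : ℕ → ℕ) {j m : ℕ} (h : j ≤ m) : (pre g m).take j = pre g j := by
  apply List.ext_getElem?
  intro i
  rw [List.getElem?_take, pre_getElem?, pre_getElem?]
  by_cases h1 : i < j
  · have : i < m := lt_of_lt_of_le h1 h
    simp [h1, this]
  · simp [h1]

/-- The first `m` values of `g`, last value first. -/
def revpre (g : ℕ → ℕ) : ℕ → List ℕ
  | 0 => []
  | m + 1 => g m :: revpre g m

theorem revpre_reverse (g : ℕ → ℕ) (m : ℕ) : (revpre g m).reverse = pre g m := by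
  induction m with
  | zero => simp [revpre, pre]
  | succ m ih => simp [revpre, pre_succ, ih]

theorem RecT.revpre_code {O : Set (ℕ →. ℕ)} {g : ℕ → ℕ} (hg : RecT O g) :
    RecT O (fun m => encode (revpre g m)) := by
  have hh : RecT O (fun x => Nat.succ (Nat.pair (g x.unpair.2.unpair.1) x.unpair.2.unpair.2)) :=
    (RecT.of_primrec' Primrec.succ).comp
      ((hg.comp (RecT.left.comp RecT.right)).pair (RecT.right.comp RecT.right))
  have h1 := (RecT.prec (RecT.const (O := O) 0) hh).comp ((RecT.const (O := O) 0).pair RecT.id')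
  refine h1.of_eq ?_
  intro m
  simp only [Nat.unpair_pair]
  induction m with
  | zero => simp [revpre]
  | succ m ih =>
    simp only [revpre, Encodable.encode_list_cons]
    rw [← ih]
    simp

/-- If the values of `f` can be read off, by a computable function with an auxiliary witness,
from long enough initial segments of `g`, then `f` is recursive in `g`. -/
theorem RecT.of_strings {O : Set (ℕ →. ℕ)} {g f : ℕ → ℕ} (hg : RecT O g)
    (ψ : List ℕ → ℕ → ℕ → Option ℕ)
    (hψ : Computable (fun p : List ℕ × ℕ × ℕ => ψ p.1 p.2.1 p.2.2))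
    (sound : ∀ m w n v, ψ (pre g m) w n = some v → v = f n)
    (complete : ∀ n, ∃ m w, (ψ (pre g m) w n).isSome) : RecT O f := by
  -- the plain computable kernel
  let K : ℕ → ℕ := fun x => encode ((decode (α := List ℕ) x.unpair.1).bind
    (fun l => ψ l.reverse x.unpair.2.unpair.1 x.unpair.2.unpair.2))
  have hK : Computable K := by
    refine Computable.encode.comp ?_
    refine Computable.option_bind
      (Computable.decode.comp (Computable.fst.comp Computable.unpair)) ?_
    refine hψ.comp (Computable.pair (Computable.list_reverse.comp Computable.snd)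
      (Computable.pair ?_ ?_))
    · exact Computable.fst.comp (Computable.unpair.comp
        (Computable.snd.comp (Computable.unpair.comp Computable.fst)))
    · exact Computable.snd.comp (Computable.unpair.comp
        (Computable.snd.comp (Computable.unpair.comp Computable.fst)))
  -- `T (pair n t) = encode (ψ (pre g t.1) t.2 n)`
  let T : ℕ → ℕ := fun x => encode (ψ (pre g x.unpair.2.unpair.1) x.unpair.2.unpair.2 x.unpair.1)
  have hT : RecT O T := by
    have h1 : RecT O (fun x => K (Nat.pair (encode (revpre g x.unpair.2.unpair.1))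
        (Nat.pair x.unpair.2.unpair.2 x.unpair.1))) :=
      (RecT.of_computable hK).comp
        ((hg.revpre_code.comp (RecT.left.comp RecT.right)).pair
          ((RecT.right.comp RecT.right).pair RecT.left))
    refine h1.of_eq ?_
    intro x
    simp [K, T, revpre_reverse]
  let q : ℕ → ℕ := fun x => if T x = 0 then 1 else 0
  have hq : RecT O q := by
    have : Primrec (fun t : ℕ => if t = 0 then 1 else 0) :=
      Primrec.ite (Primrec.eq.comp Primrec.id (Primrec.const 0)) (Primrec.const 1) (Primrec.const 0)
    exact (RecT.of_primrec' this).comp hT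
  have H : ∀ n, ∃ t, q (Nat.pair n t) = 0 := by
    intro n
    obtain ⟨m, w, h⟩ := complete n
    refine ⟨Nat.pair m w, ?_⟩
    obtain ⟨v, hv⟩ := Option.isSome_iff_exists.1 h
    simp [q, T, hv]
  have hμ := hq.find H
  have hfin : RecT O (fun n => Nat.pred (T (Nat.pair n (Nat.find (H n))))) :=
    (RecT.of_primrec' Primrec.pred).comp (hT.comp (RecT.id'.pair hμ))
  refine hfin.of_eq ?_
  intro n
  have h0 := Nat.find_spec (H n)
  set t := Nat.find (H n) with ht
  have h1 : T (Nat.pair n t) ≠ 0 := by
    intro h
    simp [q, h] at h0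
  simp only [T, Nat.unpair_pair] at h1 ⊢
  cases hv : ψ (pre g t.unpair.1) t.unpair.2 n with
  | none => simp [hv] at h1
  | some v =>
    have := sound _ _ _ _ hv
    simp [this]

end Vale.Agent.Lib.P327
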